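import Vale.Agent.P025.R2.H206.FinalV
import Vale.Agent.P025.R2.H206.ValDef

open P025H641 P025H206

universe u v w

/-- Let `k` be a `p`-adic field, `p` odd, and `E / k` a function field of one variable. There are
a finite set `S` of nonzero elements of `E` and `m > 0` such that over every function field
`K / E` whose ramification indices at the places where some `g` in `S` is not a unit are divisible
by `m`, every continuous section of `Gal(maxUnr k K / K) → Gal(constClosure k K / k)` whose image
stabilizes a valuation ring of `maxUnr k K` above the ring of integers of `k` is geometric. -/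
theorem Vale.Agent.Results.P025.RamifiedValuativeSections.result :
    ∀ (p : ℕ) [Fact p.Prime], p ≠ 2 → ∀ (k : Type u) [Field k] [Algebra ℚ_[p] k]
      [FiniteDimensional ℚ_[p] k] (E : Type v) [Field E] [Algebra k E], IsFunctionField k E →
      ∃ (S : Finset E) (m : ℕ), (∀ g ∈ S, g ≠ 0) ∧ 0 < m ∧
        ∀ (K : Type w) [Field K] [Algebra k K] [Algebra E K] [IsScalarTower k E K],
          IsFunctionField k K → IsRamifiedOver m k K S → ∀ s : Section k K,
            IsValuative p s → s.IsGeometric := by
  intro p _ hp2 k _ _ _ E _ _ hE
  obtain ⟨S, m, hS, hm, h⟩ := P025H206.every_curve_valuative.{u, v, w} hp2 k E hE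
  exact ⟨S, m, hS, hm, fun K _ _ _ _ hK hram s ⟨O, h1, h2⟩ => h K hK hram s O h1 h2⟩
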