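import Vale.Agent.P025.R2.H637.Final

open P025H641 Vale.Agent.P025.R2.H637

universe u v

/-- Let `U` be an open curve over a `p`-adic field, `p` odd, such that the equation `t + t' = 1` has
a nonconstant solution in the units of the ring of functions on the universal cover of `U`; for
instance an affine superelliptic curve. Valuative sections of the fundamental group of `U` are
geometric; so are sections of this group all of whose induced sections of the fundamental groups
of the compactified finite etale covers are valuative, and sections of the fundamental group of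
the compactified curve which lift to such a section. -/
theorem Vale.Agent.Results.P025.TripodSections.result :
    ∀ (p : ℕ) [Fact p.Prime] (k : Type u) (E : Type v) [Field k] [Algebra ℚ_[p] k]
      [FiniteDimensional ℚ_[p] k] [Field E] [Algebra k E], p ≠ 2 → IsFunctionField k E →
      ∀ T : Set (ValuationSubring E),
        ((∃ x f m, IsOrbifoldMap k T x f m) → HasTripodMap k T) ∧
        (HasTripodMap k T → ∀ s₁ : SecOf k (maxOut k T),
          (ValuativeHom p s₁.hom → s₁.IsGeometric) ∧
          ((∃ K₀ : IntermediateField E (AlgebraicClosure E), FiniteDimensional E K₀ ∧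
            (∀ x ∈ K₀, ∀ σ, (s₁.hom σ).Maps x x) ∧
            ∀ K : IntermediateField E (AlgebraicClosure E), FiniteDimensional E K → K₀ ≤ K →
              ∀ s' : Section k K, InducesOn s₁ K s' → ValuativeHom p s'.hom) →
            s₁.IsGeometric) ∧
          ∀ s : Section k E, s₁.Lifts s → s₁.IsGeometric → s.IsGeometric) := by
  intro p _ k E _ _ _ _ _ hp2 hE T
  have hchar : CharZero k := charZero_of_injective_algebraMap (algebraMap ℚ_[p] k).injective
  refine ⟨?_, fun ht s₁ => ⟨fun h => isGeometric_of_isValuative hp2 hE ht s₁ h, ?_, ?_⟩⟩
  · rintro ⟨x, f, m, h⟩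
    exact hasTripodMap_of_orbifold h
  · rintro ⟨K₀, hK₀, hfix₀, h⟩
    exact isGeometric_of_levels hp2 hE ht s₁ K₀ hK₀ hfix₀ h
  · exact fun s hl h => isGeometric_of_lift s s₁ hl h
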